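import Vale.Agent.P181.H303.Spec

/-!
P181, row V: well conditioned vectors (Vandermonde, Cramer).
-/

set_option autoImplicit false

namespace Vale.Agent.P181.H231

open Finset Vale.Agent.P181.H303

/-- integer Vandermonde-type matrix with rows `i` (power), columns `k` (node `e k`). -/
theorem vand_inv (s N : ℕ) (hN : 1 ≤ N) (e : Fin s → ℕ) (he : Function.Injective e)
    (hb : ∀ k, e k ≤ N) (j : Fin s) :
    ∃ b : Fin s → ℂ, (∀ i : Fin s, ∑ k, b k * ((e k : ℂ)) ^ (i : ℕ) = if i = j then 1 else 0) ∧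
      ∀ k, ‖b k‖ ≤ (s.factorial : ℝ) * ((N : ℝ) ^ s) ^ s := by
  classical
  set M : Matrix (Fin s) (Fin s) ℤ := Matrix.vandermonde (fun k => (e k : ℤ)) with hM
  have hdet : M.det ≠ 0 := by
    rw [hM, Matrix.det_vandermonde_ne_zero_iff]
    intro a b h
    have h' : ((e a : ℤ)) = (e b : ℤ) := h
    exact he (by exact_mod_cast h')
  have hdet' : (M.det : ℂ) ≠ 0 := by exact_mod_cast hdet
  have hmul : M.adjugate * M = M.det • (1 : Matrix (Fin s) (Fin s) ℤ) := Matrix.adjugate_mul M
  have hmul' : M * M.adjugate = M.det • (1 : Matrix (Fin s) (Fin s) ℤ) := Matrix.mul_adjugate M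
  refine ⟨fun k => (M.adjugate j k : ℂ) / (M.det : ℂ), ?_, ?_⟩
  · intro i
    have h := congrFun (congrFun hmul j) i
    rw [Matrix.mul_apply, Matrix.smul_apply, Matrix.one_apply] at h
    have h2 : (∑ k, (M.adjugate j k : ℂ) * ((e k : ℂ)) ^ (i : ℕ)) =
        (M.det : ℂ) * (if j = i then 1 else 0) := by
      have h3 : ((∑ k, M.adjugate j k * M k i : ℤ) : ℂ) =
          ((M.det • (if j = i then 1 else 0) : ℤ) : ℂ) := by rw [h]
      have h5 : ((∑ k, M.adjugate j k * M k i : ℤ) : ℂ) =
          ∑ k, (M.adjugate j k : ℂ) * ((e k : ℂ)) ^ (i : ℕ) := by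
        rw [Int.cast_sum]
        refine Finset.sum_congr rfl fun k _ => ?_
        rw [Int.cast_mul, hM, Matrix.vandermonde_apply]
        norm_cast
      rw [← h5, h3]
      by_cases hji : j = i
      · simp [hji]
      · simp [hji]
    have h4 : ∑ k, (M.adjugate j k : ℂ) / (M.det : ℂ) * ((e k : ℂ)) ^ (i : ℕ) =
        (∑ k, (M.adjugate j k : ℂ) * ((e k : ℂ)) ^ (i : ℕ)) / (M.det : ℂ) := by
      rw [Finset.sum_div]
      exact Finset.sum_congr rfl fun k _ => by ring
    rw [h4, h2]
    by_cases hij : i = j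
    · subst hij
      simp [hdet']
    · have : ¬ j = i := fun h => hij h.symm
      simp [hij, this]
  · intro k
    have h1 : (1 : ℝ) ≤ ‖(M.det : ℂ)‖ := by
      rw [Complex.norm_intCast]
      exact_mod_cast Int.one_le_abs hdet
    have hN' : (1 : ℤ) ≤ (N : ℤ) := by exact_mod_cast hN
    have hNs : (1 : ℤ) ≤ (N : ℤ) ^ s := one_le_pow₀ hN'
    have h2 : |M.adjugate j k| ≤ (s.factorial : ℤ) * ((N : ℤ) ^ s) ^ s := by
      rw [Matrix.adjugate_apply]
      have h3 := Matrix.det_le (A := M.updateRow k (Pi.single j 1))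
        (abv := AbsoluteValue.abs) (x := (N : ℤ) ^ s) (by
          intro a b
          show |M.updateRow k (Pi.single j 1) a b| ≤ _
          rw [Matrix.updateRow_apply]
          split_ifs with h
          · by_cases hb' : b = j
            · subst hb'
              simp only [Pi.single_eq_same, abs_one]
              exact hNs
            · rw [Pi.single_eq_of_ne hb', abs_zero]
              exact le_trans zero_le_one hNs
          · rw [hM, Matrix.vandermonde_apply, abs_of_nonneg (by positivity)]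
            calc ((e a : ℤ)) ^ (b : ℕ) ≤ (N : ℤ) ^ (b : ℕ) :=
                  pow_le_pow_left₀ (by positivity) (by exact_mod_cast hb a) _
              _ ≤ (N : ℤ) ^ s := pow_le_pow_right₀ hN' (le_of_lt b.2))
      have h4 : (Nat.factorial (Fintype.card (Fin s))) • ((N : ℤ) ^ s) ^ (Fintype.card (Fin s)) =
          (s.factorial : ℤ) * ((N : ℤ) ^ s) ^ s := by
        rw [Fintype.card_fin, nsmul_eq_mul]
      rw [h4] at h3
      exact h3
    rw [norm_div]
    have h5 : ‖(M.adjugate j k : ℂ)‖ ≤ (s.factorial : ℝ) * ((N : ℝ) ^ s) ^ s := by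
      rw [Complex.norm_intCast]
      exact_mod_cast h2
    calc ‖(M.adjugate j k : ℂ)‖ / ‖(M.det : ℂ)‖ ≤ ‖(M.adjugate j k : ℂ)‖ / 1 := by
          gcongr
      _ ≤ _ := by rw [div_one]; exact h5

theorem TT_pos (s : ℕ) : 1 ≤ TT s := by unfold TT; omega

theorem rowV : RowV := by
  classical
  intro s hs
  set N := TT s with hN
  have hN1 : 1 ≤ N := TT_pos s
  set D : ℕ := s * N ^ s with hD
  have hD1 : 1 ≤ D := Nat.mul_pos hs (Nat.pow_pos hN1)
  have hDR : (0 : ℝ) < D := by exact_mod_cast hD1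
  have hDC : (D : ℂ) ≠ 0 := by exact_mod_cast (Nat.pos_iff_ne_zero.mp hD1)
  refine ⟨fun t j => (((t : ℕ) + 1 : ℕ) : ℂ) ^ (j : ℕ) / D, ?_, ?_⟩
  · intro t
    have h1 : ∀ j : Fin s, ‖(((t : ℕ) + 1 : ℕ) : ℂ) ^ (j : ℕ) / D‖ ≤ (N : ℝ) ^ s / D := by
      intro j
      rw [norm_div, norm_pow, Complex.norm_natCast, Complex.norm_natCast]
      gcongr
      calc (((t : ℕ) + 1 : ℕ) : ℝ) ^ (j : ℕ) ≤ (N : ℝ) ^ (j : ℕ) := by
            gcongr
            exact t.2
        _ ≤ (N : ℝ) ^ s := pow_le_pow_right₀ (by exact_mod_cast hN1) (le_of_lt j.2)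
    calc ∑ j : Fin s, ‖(((t : ℕ) + 1 : ℕ) : ℂ) ^ (j : ℕ) / D‖
        ≤ ∑ _j : Fin s, (N : ℝ) ^ s / D := Finset.sum_le_sum fun j _ => h1 j
      _ = s * ((N : ℝ) ^ s / D) := by
          rw [Finset.sum_const, Finset.card_univ, Fintype.card_fin, nsmul_eq_mul]
      _ = 1 := by
          rw [hD]
          push_cast
          have : (s : ℝ) ≠ 0 := by positivity
          have h2 : (N : ℝ) ^ s ≠ 0 := by positivity
          field_simp
      _ ≤ 1 := le_refl _
  · intro S hS j
    obtain ⟨S', hS'S, hS'c⟩ := Finset.exists_subset_card_eq hS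
    set f : Fin s ≃o S' := S'.orderIsoOfFin hS'c with hf
    obtain ⟨b, hb1, hb2⟩ := vand_inv s N hN1 (fun k => ((f k : Fin (TT s)) : ℕ) + 1) (by
      intro a c h
      have h' : ((f a : Fin (TT s)) : ℕ) = ((f c : Fin (TT s)) : ℕ) := Nat.succ_injective h
      have h'' : f a = f c := Subtype.ext (Fin.ext h')
      exact f.injective h'') (by
      intro k
      exact (f k : Fin (TT s)).2) j
    -- extend by zero
    have key : ∀ (g : Fin (TT s) → ℂ → ℂ), (∀ t, g t 0 = 0) →
        ∑ t, g t (if h : t ∈ S' then D * b (f.symm ⟨t, h⟩) else 0) =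
          ∑ k, g (f k) (D * b k) := by
      intro g hg
      rw [← Finset.sum_subset (Finset.subset_univ S') (by
        intro t _ ht
        rw [dif_neg ht, hg])]
      rw [← Finset.sum_attach S']
      refine Finset.sum_bij' (fun t _ => f.symm t) (fun k _ => f k) ?_ ?_ ?_ ?_ ?_
      · intro t _; exact Finset.mem_univ _
      · intro k _; exact Finset.mem_attach _ _
      · intro t _; simp
      · intro k _; simp
      · intro t _
        simp
    refine ⟨fun t => if h : t ∈ S' then D * b (f.symm ⟨t, h⟩) else 0, ?_, ?_, ?_⟩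
    · intro t ht
      simp only
      rw [dif_neg fun h => ht (hS'S h)]
    · have h1 : ∑ t, ‖(if h : t ∈ S' then (D : ℂ) * b (f.symm ⟨t, h⟩) else 0)‖ =
          ∑ k, ‖(D : ℂ) * b k‖ := by
        have h := key (fun _ x => ((‖x‖ : ℝ) : ℂ)) (by simp)
        exact_mod_cast h
      rw [h1]
      have h2 : ∀ k, ‖(D : ℂ) * b k‖ ≤ D * ((s.factorial : ℝ) * ((N : ℝ) ^ s) ^ s) := by
        intro k
        rw [norm_mul, Complex.norm_natCast]
        gcongr
        exact hb2 k
      calc ∑ k, ‖(D : ℂ) * b k‖ ≤ ∑ _k : Fin s, D * ((s.factorial : ℝ) * ((N : ℝ) ^ s) ^ s) :=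
            Finset.sum_le_sum fun k _ => h2 k
        _ = s * (D * ((s.factorial : ℝ) * ((N : ℝ) ^ s) ^ s)) := by
            rw [Finset.sum_const, Finset.card_univ, Fintype.card_fin, nsmul_eq_mul]
        _ ≤ (vv s : ℝ) := by
            have h3 : s * (D * (s.factorial * (N ^ s) ^ s)) ≤ vv s := by
              rw [hD]
              unfold vv
              rw [← hN]
              have ha : s.factorial ≤ s ^ s := Nat.factorial_le_pow s
              calc s * (s * N ^ s * (s.factorial * (N ^ s) ^ s))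
                  ≤ s * (s * N ^ s * (s ^ s * (N ^ s) ^ s)) := by gcongr
                _ = s ^ (2 + s) * N ^ (s + s * s) := by ring
                _ ≤ s ^ (4 * (s * s)) * N ^ (4 * (s * s)) := by
                    have e3 : 2 + s ≤ 4 * (s * s) := by nlinarith
                    have e4 : s + s * s ≤ 4 * (s * s) := by nlinarith
                    exact Nat.mul_le_mul (Nat.pow_le_pow_right hs e3)
                      (Nat.pow_le_pow_right hN1 e4)
                _ = (s * N) ^ (4 * (s * s)) := by rw [mul_pow]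
            exact_mod_cast h3
    · intro i
      have h := key (fun t x => x * ((((t : ℕ) + 1 : ℕ) : ℂ) ^ (i : ℕ) / D)) (by
        intro t; simp)
      simp only at h ⊢
      rw [h, ← hb1 i]
      refine Finset.sum_congr rfl fun k _ => ?_
      field_simp

end Vale.Agent.P181.H231
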